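import Mathlib

/-!
# Block N1, Wirtinger's inequality from the crossing property (calibration by `λ tan`).
-/

open MeasureTheory Set Filter Topology
open scoped ENNReal NNReal

noncomputable section

namespace Crest.Agent.R241

section wirt

variable {Ω : Type*} [MeasurableSpace Ω]

/-- tail function -/
def n1m (ν : Measure Ω) (u : Ω → ℝ) (t : ℝ) : ℝ := ν.real {o | t < u o}

theorem n1m_anti (ν : Measure Ω) [IsFiniteMeasure ν] (u : Ω → ℝ) : Antitone (n1m ν u) :=
  fun _ _ h => measureReal_mono (fun _ ho => h.trans_lt ho) (measure_ne_top _ _)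

theorem n1m_nonneg (ν : Measure Ω) (u : Ω → ℝ) (t : ℝ) : 0 ≤ n1m ν u t := measureReal_nonneg

theorem n1m_le (ν : Measure Ω) [IsFiniteMeasure ν] (u : Ω → ℝ) (t : ℝ) :
    n1m ν u t ≤ ν.real univ := measureReal_mono (subset_univ _) (measure_ne_top _ _)

theorem n1_tail (ν : Measure Ω) [IsFiniteMeasure ν] {u : Ω → ℝ} (hu : Measurable u) (t s : ℝ) :
    ν ({o | s < n1m ν u (u o)} ∩ {o | t < u o}) ≤ ENNReal.ofReal (n1m ν u t - s) := by
  rcases ({o | s < n1m ν u (u o)} ∩ {o | t < u o}).eq_empty_or_nonempty with h | ⟨o₀, h1, h2⟩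
  · rw [h]; simp
  set S : Set ℝ := {τ | s < n1m ν u τ} with hS
  have hlow : IsLowerSet S := fun a b hba ha => lt_of_lt_of_le ha (n1m_anti ν u hba)
  have htS : t ∈ S := hlow (le_of_lt h2) h1
  have : S.OrdConnected := hlow.ordConnected
  have : Nonempty S := ⟨⟨t, htS⟩⟩
  have hmS : MeasurableSet {o | s < n1m ν u (u o)} :=
    measurableSet_lt measurable_const ((n1m_anti ν u).measurable.comp hu)
  have hint : {o | s < n1m ν u (u o)}ᶜ = ⋂ τ : S, {o | (τ : ℝ) < u o} := by
    ext o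
    simp only [mem_compl_iff, mem_ofPred_eq, mem_iInter]
    constructor
    · intro ho τ
      by_contra hc
      exact ho (hlow (not_lt.1 hc) τ.2)
    · intro ho hc
      exact lt_irrefl _ (ho ⟨u o, hc⟩)
  have hanti : Antitone fun τ : S => {o | (τ : ℝ) < u o} :=
    fun a b hab o ho => lt_of_le_of_lt (show (a : ℝ) ≤ b from hab) ho
  have hge : ENNReal.ofReal s ≤ ν {o | s < n1m ν u (u o)}ᶜ := by
    rw [hint, hanti.measure_iInter
      (fun τ => (measurableSet_lt measurable_const hu).nullMeasurableSet)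
      ⟨⟨t, htS⟩, measure_ne_top _ _⟩]
    refine le_iInf fun τ => ?_
    have : s ≤ ν.real {o | (τ : ℝ) < u o} := le_of_lt τ.2
    exact (ENNReal.ofReal_le_ofReal this).trans (by rw [ofReal_measureReal])
  have hsub : {o | s < n1m ν u (u o)}ᶜ ⊆ {o | t < u o} := by
    rw [hint]; exact iInter_subset _ (⟨t, htS⟩ : S)
  have hsplit : ν.real ({o | s < n1m ν u (u o)} ∩ {o | t < u o})
      + ν.real {o | s < n1m ν u (u o)}ᶜ = n1m ν u t := by
    have := measureReal_inter_add_sdiff (μ := ν) (s := {o | t < u o}) hmS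
    rw [inter_comm] at this
    rw [n1m, ← this]
    congr 2
    ext o
    constructor
    · intro ho; exact ⟨hsub ho, ho⟩
    · intro ho; exact ho.2
  have hge' : s ≤ ν.real {o | s < n1m ν u (u o)}ᶜ := by
    rcases le_total s 0 with hs | hs
    · exact hs.trans measureReal_nonneg
    · exact (ENNReal.ofReal_le_iff_le_toReal (measure_ne_top _ _)).1 hge
  rw [← ofReal_measureReal]
  exact ENNReal.ofReal_le_ofReal (by linarith)

theorem n1_layer (ν : Measure Ω) {Y : Ω → ℝ} (hY : Measurable Y) (hY0 : ∀ o, 0 ≤ Y o) {a : ℝ}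
    (ha : 0 ≤ a) (htail : ∀ s, ν {o | s < Y o} ≤ ENNReal.ofReal (a - s)) {φ : ℝ → ℝ}
    (hφ : Continuous φ) (hφ0 : ∀ s, 0 ≤ φ s) :
    ∫⁻ o, ENNReal.ofReal (∫ s in (0 : ℝ)..Y o, φ s) ∂ν
      ≤ ENNReal.ofReal (∫ s in (0 : ℝ)..a, (a - s) * φ s) := by
  rw [lintegral_comp_eq_lintegral_meas_lt_mul ν (Eventually.of_forall hY0) hY.aemeasurable
    (fun t _ => hφ.intervalIntegrable _ _) (Eventually.of_forall hφ0)]
  have hc : Continuous fun s => (a - s) * φ s := by fun_prop
  rw [intervalIntegral.integral_of_le ha, ofReal_integral_eq_lintegral_ofReal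
    (hc.integrableOn_Icc.mono_set Ioc_subset_Icc_self)
    ((ae_restrict_iff' measurableSet_Ioc).2 (Eventually.of_forall fun s hs =>
      mul_nonneg (sub_nonneg.2 hs.2) (hφ0 s)))]
  calc ∫⁻ t in Ioi 0, ν {o | t < Y o} * ENNReal.ofReal (φ t)
      ≤ ∫⁻ t in Ioi 0, (Iic a).indicator (fun s => ENNReal.ofReal ((a - s) * φ s)) t := by
        refine lintegral_mono fun t => ?_
        by_cases ht : t ≤ a
        · rw [indicator_of_mem (show t ∈ Iic a from ht),
            ENNReal.ofReal_mul (sub_nonneg.2 ht)]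
          exact mul_le_mul_left (htail t) _
        · have h0 : ν {o | t < Y o} = 0 := by
            have := htail t
            rwa [ENNReal.ofReal_of_nonpos (by linarith [not_le.1 ht]), nonpos_iff_eq_zero] at this
          rw [h0, zero_mul]; exact zero_le
    _ = ∫⁻ s in Ioc 0 a, ENNReal.ofReal ((a - s) * φ s) := by
        rw [lintegral_indicator measurableSet_Iic, Measure.restrict_restrict measurableSet_Iic,
          inter_comm, Ioi_inter_Iic]

/-- the calibration -/
def n1w (l m : ℝ) : ℝ := l * Real.tan (l * m / 2)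

theorem n1w_hasDerivAt {l M m : ℝ} (hl : 0 < l) (hM : l * M < Real.pi) (hm : m ∈ Icc 0 M) :
    HasDerivAt (n1w l) ((l ^ 2 + n1w l m ^ 2) / 2) m := by
  have h1 : 0 ≤ l * m := mul_nonneg hl.le hm.1
  have h2 : l * m ≤ l * M := mul_le_mul_of_nonneg_left hm.2 hl.le
  have hcos : Real.cos (l * m / 2) ≠ 0 :=
    (Real.cos_pos_of_mem_Ioo ⟨by linarith [Real.pi_pos], by linarith⟩).ne'
  have h3 : HasDerivAt (fun m => l * m / 2) (l * 1 / 2) m :=
    ((hasDerivAt_id m).const_mul l).div_const 2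
  have h4 := ((Real.hasDerivAt_tan hcos).comp m h3).const_mul l
  refine HasDerivAt.congr_deriv (f := n1w l) h4 ?_
  rw [n1w, Real.tan_eq_sin_div_cos]
  have := Real.sin_sq_add_cos_sq (l * m / 2)
  field_simp
  linear_combination -this

theorem n1w_nonneg {l M m : ℝ} (hl : 0 < l) (hM : l * M < Real.pi) (hm : m ∈ Icc 0 M) :
    0 ≤ n1w l m := by
  have h1 : 0 ≤ l * m := mul_nonneg hl.le hm.1
  have h2 : l * m ≤ l * M := mul_le_mul_of_nonneg_left hm.2 hl.le
  exact mul_nonneg hl.le (Real.tan_nonneg_of_nonneg_of_le_pi_div_two (by linarith) (by linarith))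

theorem n1w_le {l M m : ℝ} (hl : 0 < l) (hM : l * M < Real.pi) (hm : m ∈ Icc 0 M) :
    n1w l m ≤ n1w l M := by
  have h1 : 0 ≤ l * m := mul_nonneg hl.le hm.1
  have h2 : l * m ≤ l * M := mul_le_mul_of_nonneg_left hm.2 hl.le
  refine mul_le_mul_of_nonneg_left ?_ hl.le
  exact Real.strictMonoOn_tan.monotoneOn ⟨by linarith [Real.pi_pos], by linarith⟩
    ⟨by linarith [Real.pi_pos], by linarith⟩ (by linarith)

theorem n1w_measurable (l : ℝ) : Measurable (n1w l) := by
  unfold n1w
  have : Measurable Real.tan := by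
    have : Real.tan = fun x => Real.sin x / Real.cos x := funext Real.tan_eq_sin_div_cos
    rw [this]; fun_prop
  fun_prop

theorem n1w_zero (l : ℝ) : n1w l 0 = 0 := by simp [n1w]

/-- `∫_{u > t} w(m(u))² ≤ 2 w(m t) - l² m t` -/
theorem n1_key (ν : Measure Ω) [IsFiniteMeasure ν] {u : Ω → ℝ} (hu : Measurable u) {l : ℝ}
    (hl : 0 < l) (hM : l * ν.real univ < Real.pi) (t : ℝ) :
    ∫⁻ o in {o | t < u o}, ENNReal.ofReal (l ^ 2 + n1w l (n1m ν u (u o)) ^ 2) ∂ν
      ≤ ENNReal.ofReal (2 * n1w l (n1m ν u t)) := by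
  set M := ν.real univ with hMdef
  have hM0 : 0 ≤ M := measureReal_nonneg
  have hmem : ∀ τ, n1m ν u τ ∈ Icc 0 M := fun τ => ⟨n1m_nonneg ν u τ, n1m_le ν u τ⟩
  have hwc : ContinuousOn (n1w l) (Icc 0 M) := fun m hm =>
    (n1w_hasDerivAt hl hM hm).continuousAt.continuousWithinAt
  set cl : ℝ → ℝ := fun s => max 0 (min s M) with hcl
  have hclm : ∀ s, cl s ∈ Icc 0 M := fun s => ⟨le_max_left _ _, max_le hM0 (min_le_right _ _)⟩
  have hcle : ∀ s ∈ Icc 0 M, cl s = s := fun s hs => by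
    simp only [hcl]; rw [min_eq_left hs.2, max_eq_right hs.1]
  have hwcl : Continuous fun s => n1w l (cl s) :=
    hwc.comp_continuous (by simp only [hcl]; fun_prop) hclm
  set φ : ℝ → ℝ := fun s => n1w l (cl s) * (l ^ 2 + n1w l (cl s) ^ 2) with hφ
  have hφc : Continuous φ := hwcl.mul (continuous_const.add (hwcl.pow 2))
  have hφ0 : ∀ s, 0 ≤ φ s := fun s =>
    mul_nonneg (n1w_nonneg hl hM (hclm s)) (by positivity)
  have hsq : ∀ m ∈ Icc 0 M, HasDerivAt (fun m => n1w l m ^ 2) (φ m) m := fun m hm => by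
    refine HasDerivAt.congr_deriv (f := fun m => n1w l m ^ 2) ((n1w_hasDerivAt hl hM hm).pow 2) ?_
    simp only [hφ, hcle m hm]; push_cast; ring
  have hI1 : ∀ y ∈ Icc 0 M, ∫ s in (0 : ℝ)..y, φ s = n1w l y ^ 2 := fun y hy => by
    rw [intervalIntegral.integral_eq_sub_of_hasDerivAt (f := fun m => n1w l m ^ 2)
      (fun s hs => hsq s (by
        rw [uIcc_of_le hy.1] at hs; exact ⟨hs.1, hs.2.trans hy.2⟩)) (hφc.intervalIntegrable _ _)]
    simp [n1w_zero]
  set a := n1m ν u t with hadef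
  have ha := hmem t
  have hI2 : ∫ s in (0 : ℝ)..a, (a - s) * φ s = 2 * n1w l a - l ^ 2 * a := by
    rw [intervalIntegral.integral_eq_sub_of_hasDerivAt
      (f := fun m => (a - m) * n1w l m ^ 2 + 2 * n1w l m - l ^ 2 * m)
      (fun s hs => by
        rw [uIcc_of_le ha.1] at hs
        have hs' : s ∈ Icc 0 M := ⟨hs.1, hs.2.trans ha.2⟩
        have h1 := (((hasDerivAt_id s).const_sub a).mul (hsq s hs')).add
          ((n1w_hasDerivAt hl hM hs').const_mul 2)
        have h2 := h1.sub ((hasDerivAt_id s).const_mul (l ^ 2))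
        refine HasDerivAt.congr_deriv
          (f := fun m => (a - m) * n1w l m ^ 2 + 2 * n1w l m - l ^ 2 * m) h2 ?_
        simp only [id]; ring)
      (Continuous.intervalIntegrable (by fun_prop) _ _)]
    simp [n1w_zero]
  have hB : MeasurableSet {o | t < u o} := measurableSet_lt measurable_const hu
  have hY : Measurable fun o => n1m ν u (u o) := (n1m_anti ν u).measurable.comp hu
  have hlay := n1_layer (ν.restrict {o | t < u o}) hY (fun o => n1m_nonneg ν u _) ha.1
    (fun s => by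
      rw [Measure.restrict_apply (measurableSet_lt measurable_const hY)]
      exact n1_tail ν hu t s) hφc hφ0
  simp only [fun o => hI1 _ (hmem (u o))] at hlay
  rw [hI2] at hlay
  have hge : 0 ≤ 2 * n1w l a - l ^ 2 * a := by
    rw [← hI2]
    exact intervalIntegral.integral_nonneg ha.1 fun s hs => mul_nonneg (sub_nonneg.2 hs.2) (hφ0 s)
  calc ∫⁻ o in {o | t < u o}, ENNReal.ofReal (l ^ 2 + n1w l (n1m ν u (u o)) ^ 2) ∂ν
      = ∫⁻ o in {o | t < u o}, (ENNReal.ofReal (l ^ 2)
          + ENNReal.ofReal (n1w l (n1m ν u (u o)) ^ 2)) ∂ν := by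
        refine lintegral_congr fun o => ENNReal.ofReal_add (by positivity) (by positivity)
    _ = ENNReal.ofReal (l ^ 2 * a)
          + ∫⁻ o in {o | t < u o}, ENNReal.ofReal (n1w l (n1m ν u (u o)) ^ 2) ∂ν := by
        rw [lintegral_add_left measurable_const, setLIntegral_const,
          ENNReal.ofReal_mul (by positivity), hadef, n1m, ofReal_measureReal]
    _ ≤ ENNReal.ofReal (l ^ 2 * a) + ENNReal.ofReal (2 * n1w l a - l ^ 2 * a) := by gcongr
    _ = ENNReal.ofReal (2 * n1w l a) := by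
        rw [← ENNReal.ofReal_add (mul_nonneg (by positivity) ha.1) hge]; congr 1; ring

/-- the crossing property dominates Lebesgue measure -/
theorem n1_dom (μ : Measure ℝ) [IsFiniteMeasure μ] {T : ℝ}
    (h : ∀ s t, 0 < s → s < t → t < T → ENNReal.ofReal (2 * (t - s)) ≤ μ (Icc s t)) :
    ((2 : ℝ≥0∞) • volume).restrict (Ioo 0 T) ≤ μ := by
  refine Measure.le_iff.2 fun A hA => ?_
  rw [Measure.restrict_apply hA]
  refine le_trans ?_ (measure_mono (inter_subset_left (t := Ioo 0 T)))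
  refine (Besicovitch.vitaliFamily (volume : Measure ℝ)).measure_le_of_frequently_le μ
    (Measure.smul_absolutelyContinuous) _ fun x hx => ?_
  refine (Besicovitch.tendsto_filterAt volume x).frequently (Eventually.frequently ?_)
  have h1 : ∀ᶠ r in 𝓝[>] (0 : ℝ), r < min x (T - x) :=
    mem_nhdsWithin_of_mem_nhds (Iio_mem_nhds (lt_min hx.2.1 (sub_pos.2 hx.2.2)))
  filter_upwards [h1, self_mem_nhdsWithin] with r hr hr0
  have hr0' : (0 : ℝ) < r := hr0
  have h2 := lt_min_iff.1 hr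
  rw [Real.closedBall_eq_Icc]
  refine le_trans (le_of_eq ?_) (h (x - r) (x + r) (by linarith [h2.1]) (by linarith)
    (by linarith [h2.2]))
  rw [Measure.smul_apply, Real.volume_Icc, smul_eq_mul, ENNReal.ofReal_mul (by norm_num)]
  simp

theorem n1_wirt_aux (ν : Measure Ω) [IsFiniteMeasure ν]
    {u g : Ω → ℝ} (hu : Measurable u) (hg : Measurable g) {T G : ℝ} (hT : 0 < T)
    (hu0 : ∀ᵐ o ∂ν, u o ∈ Icc 0 T) (hg0 : ∀ᵐ o ∂ν, g o ∈ Icc 0 G)
    (hcross : ∀ s t, 0 < s → s < t → t < T → 2 * (t - s) ≤ ∫ o in {o | u o ∈ Icc s t}, g o ∂ν)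
    {l : ℝ} (hl : 0 < l) (hM : l * ν.real univ < Real.pi) :
    l ^ 2 * ∫ o, u o ^ 2 ∂ν ≤ ∫ o, g o ^ 2 ∂ν := by
  set M := ν.real univ with hMdef
  have hmem : ∀ τ, n1m ν u τ ∈ Icc 0 M := fun τ => ⟨n1m_nonneg ν u τ, n1m_le ν u τ⟩
  set w : ℝ → ℝ := fun t => n1w l (n1m ν u t) with hw
  have hwm : Measurable w := (n1w_measurable l).comp (n1m_anti ν u).measurable
  have hw0 : ∀ t, 0 ≤ w t := fun t => n1w_nonneg hl hM (hmem t)
  have hwle : ∀ t, w t ≤ n1w l M := fun t => n1w_le hl hM (hmem t)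
  set W := n1w l M with hW
  have hW0 : 0 ≤ W := (hw0 0).trans (hwle 0)
  -- integrability
  have hbd : ∀ {f : Ω → ℝ} (C : ℝ), Measurable f → (∀ᵐ o ∂ν, |f o| ≤ C) → Integrable f ν :=
    fun C hf hC => Integrable.of_bound hf.aestronglyMeasurable C hC
  have hgi : Integrable g ν := hbd G hg (hg0.mono fun o ho => by rw [abs_of_nonneg ho.1]; exact ho.2)
  have hg2 : Integrable (fun o => g o ^ 2) ν := hbd (G ^ 2) (hg.pow_const 2)
    (hg0.mono fun o ho => by
      rw [abs_of_nonneg (sq_nonneg _)]; exact pow_le_pow_left₀ ho.1 ho.2 2)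
  have hu2 : Integrable (fun o => u o ^ 2) ν := hbd (T ^ 2) (hu.pow_const 2)
    (hu0.mono fun o ho => by
      rw [abs_of_nonneg (sq_nonneg _)]; exact pow_le_pow_left₀ ho.1 ho.2 2)
  have hqm : Measurable fun o => u o * w (u o) := hu.mul (hwm.comp hu)
  have hqb : ∀ᵐ o ∂ν, u o * w (u o) ∈ Icc 0 (T * W) := hu0.mono fun o ho =>
    ⟨mul_nonneg ho.1 (hw0 _), mul_le_mul ho.2 (hwle _) (hw0 _) hT.le⟩
  have hq2 : Integrable (fun o => (u o * w (u o)) ^ 2) ν := hbd ((T * W) ^ 2) (hqm.pow_const 2)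
    (hqb.mono fun o ho => by
      rw [abs_of_nonneg (sq_nonneg _)]; exact pow_le_pow_left₀ ho.1 ho.2 2)
  have hgq : Integrable (fun o => g o * (u o * w (u o))) ν := hbd (G * (T * W)) (hg.mul hqm)
    ((hqb.and hg0).mono fun o ho => by
      rw [abs_of_nonneg (mul_nonneg ho.2.1 ho.1.1)]
      exact mul_le_mul ho.2.2 ho.1.2 ho.1.1 (ho.2.1.trans ho.2.2))
  -- step 1: layer cake
  set ρ : Ω → ℝ≥0∞ := fun o => ENNReal.ofReal (l ^ 2 + w (u o) ^ 2) with hρ
  have hρm : Measurable ρ := (measurable_const.add ((hwm.comp hu).pow_const 2)).ennreal_ofReal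
  have h1 : ENNReal.ofReal (∫ o, (l ^ 2 * u o ^ 2 + (u o * w (u o)) ^ 2) ∂ν)
      ≤ ∫⁻ t in Ioo 0 T, ENNReal.ofReal (4 * (t * w t)) := by
    have hi : Integrable (fun o => l ^ 2 * u o ^ 2 + (u o * w (u o)) ^ 2) ν :=
      (hu2.const_mul _).add hq2
    rw [ofReal_integral_eq_lintegral_ofReal hi
      (Eventually.of_forall fun o => add_nonneg (by positivity) (sq_nonneg _))]
    have hlc := lintegral_comp_eq_lintegral_meas_lt_mul (ν.withDensity ρ) (f := u)
      (g := fun t => 2 * t)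
      ((withDensity_absolutelyContinuous ν ρ).ae_le (hu0.mono fun o ho => ho.1)) hu.aemeasurable
      (fun t _ => Continuous.intervalIntegrable (by fun_prop) _ _)
      ((ae_restrict_iff' measurableSet_Ioi).2 (Eventually.of_forall fun t ht =>
        mul_nonneg (by norm_num) (le_of_lt ht)))
    have hint : ∀ y : ℝ, ∫ t in (0 : ℝ)..y, 2 * t = y ^ 2 := fun y => by
      rw [intervalIntegral.integral_const_mul, integral_id]; ring
    simp only [hint] at hlc
    rw [lintegral_withDensity_eq_lintegral_mul _ hρm (hu.pow_const 2).ennreal_ofReal] at hlc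
    calc ∫⁻ o, ENNReal.ofReal (l ^ 2 * u o ^ 2 + (u o * w (u o)) ^ 2) ∂ν
        = ∫⁻ o, (ρ * fun o => ENNReal.ofReal (u o ^ 2)) o ∂ν := by
          refine lintegral_congr fun o => ?_
          simp only [Pi.mul_apply, hρ]
          rw [← ENNReal.ofReal_mul (by positivity)]; congr 1; ring
      _ = _ := hlc
      _ ≤ ∫⁻ t in Ioi 0, (Iio T).indicator (fun t => ENNReal.ofReal (4 * (t * w t))) t := by
          refine setLIntegral_mono' measurableSet_Ioi fun t ht => ?_
          have hB : MeasurableSet {o | t < u o} := measurableSet_lt measurable_const hu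
          rw [withDensity_apply _ hB]
          by_cases htT : t < T
          · rw [indicator_of_mem (show t ∈ Iio T from htT)]
            calc _ ≤ ENNReal.ofReal (2 * w t) * ENNReal.ofReal (2 * t) :=
                  mul_le_mul_left (n1_key ν hu hl hM t) _
              _ = _ := by
                  rw [← ENNReal.ofReal_mul (by linarith [hw0 t])]; congr 1; ring
          · have h0 : ν {o | t < u o} = 0 := by
              rw [measure_eq_zero_iff_ae_notMem]
              filter_upwards [hu0] with o ho hc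
              exact htT (lt_of_lt_of_le hc ho.2)
            rw [Measure.restrict_eq_zero.2 h0]; simp
      _ = _ := by
          rw [lintegral_indicator measurableSet_Iio, Measure.restrict_restrict measurableSet_Iio,
            inter_comm, Ioi_inter_Iio]
  -- step 2: domination
  set γ : Ω → ℝ≥0∞ := fun o => ENNReal.ofReal (g o) with hγ
  have hγm : Measurable γ := hg.ennreal_ofReal
  have : IsFiniteMeasure (ν.withDensity γ) := isFiniteMeasure_withDensity_ofReal hgi.2
  have hdom := n1_dom ((ν.withDensity γ).map u) (T := T) fun s t hs hst htT => by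
    rw [Measure.map_apply hu measurableSet_Icc, withDensity_apply _ (hu measurableSet_Icc),
      ← ofReal_integral_eq_lintegral_ofReal hgi.integrableOn
        (ae_restrict_of_ae (hg0.mono fun o ho => ho.1))]
    exact ENNReal.ofReal_le_ofReal (hcross s t hs hst htT)
  have hqm' : Measurable fun t => ENNReal.ofReal (2 * (t * w t)) :=
    (measurable_const.mul (measurable_id.mul hwm)).ennreal_ofReal
  have h2 : ∫⁻ t in Ioo 0 T, ENNReal.ofReal (4 * (t * w t))
      ≤ ENNReal.ofReal (∫ o, 2 * (g o * (u o * w (u o))) ∂ν) := by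
    rw [ofReal_integral_eq_lintegral_ofReal (hgq.const_mul 2)
      ((hqb.and hg0).mono fun o ho => mul_nonneg (by norm_num) (mul_nonneg ho.2.1 ho.1.1))]
    calc ∫⁻ t in Ioo 0 T, ENNReal.ofReal (4 * (t * w t))
        = ∫⁻ t, ENNReal.ofReal (2 * (t * w t)) ∂(((2 : ℝ≥0∞) • volume).restrict (Ioo 0 T)) := by
          rw [Measure.restrict_smul, lintegral_smul_measure, smul_eq_mul,
            ← lintegral_const_mul _ hqm']
          refine lintegral_congr fun t => ?_
          rw [show 4 * (t * w t) = 2 * (2 * (t * w t)) by ring, ENNReal.ofReal_mul (by norm_num)]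
          simp
      _ ≤ ∫⁻ t, ENNReal.ofReal (2 * (t * w t)) ∂((ν.withDensity γ).map u) :=
          lintegral_mono' hdom le_rfl
      _ = ∫⁻ o, (γ * fun o => ENNReal.ofReal (2 * (u o * w (u o)))) o ∂ν := by
          rw [lintegral_map hqm' hu]
          exact lintegral_withDensity_eq_lintegral_mul _ hγm (hqm'.comp hu)
      _ = _ := by
          refine lintegral_congr_ae (hg0.mono fun o ho => ?_)
          simp only [Pi.mul_apply, hγ]
          rw [← ENNReal.ofReal_mul ho.1]; congr 1; ring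
  have h3 := (ENNReal.ofReal_le_ofReal_iff (integral_nonneg_of_ae
    ((hqb.and hg0).mono fun o ho =>
      mul_nonneg (by norm_num) (mul_nonneg ho.2.1 ho.1.1)))).1 (h1.trans h2)
  have h4 : ∫ o, 2 * (g o * (u o * w (u o))) ∂ν ≤ ∫ o, (g o ^ 2 + (u o * w (u o)) ^ 2) ∂ν :=
    integral_mono (hgq.const_mul 2) (hg2.add hq2) fun o => by
      nlinarith [sq_nonneg (g o - u o * w (u o))]
  rw [integral_add (hu2.const_mul _) hq2, integral_const_mul] at h3
  rw [integral_add hg2 hq2] at h4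
  linarith

theorem n1_wirt (ν : Measure Ω) [IsFiniteMeasure ν]
    {u g : Ω → ℝ} (hu : Measurable u) (hg : Measurable g) {T G : ℝ} (hT : 0 < T)
    (hu0 : ∀ᵐ o ∂ν, u o ∈ Icc 0 T) (hg0 : ∀ᵐ o ∂ν, g o ∈ Icc 0 G)
    (hcross : ∀ s t, 0 < s → s < t → t < T → 2 * (t - s) ≤ ∫ o in {o | u o ∈ Icc s t}, g o ∂ν) :
    (Real.pi / ν.real univ) ^ 2 * ∫ o, u o ^ 2 ∂ν ≤ ∫ o, g o ^ 2 ∂ν := by
  rcases (measureReal_nonneg (μ := ν) (s := univ)).eq_or_lt with h0 | hM
  · rw [← h0, div_zero]
    simp only [ne_eq, OfNat.ofNat_ne_zero, not_false_eq_true, zero_pow, zero_mul]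
    exact integral_nonneg fun o => sq_nonneg _
  have hp : 0 < Real.pi / ν.real univ := div_pos Real.pi_pos hM
  have hlim : Tendsto (fun l : ℝ => l ^ 2 * ∫ o, u o ^ 2 ∂ν) (𝓝[<] (Real.pi / ν.real univ))
      (𝓝 ((Real.pi / ν.real univ) ^ 2 * ∫ o, u o ^ 2 ∂ν)) :=
    (Continuous.tendsto (by fun_prop) _).mono_left nhdsWithin_le_nhds
  refine le_of_tendsto hlim ?_
  filter_upwards [Ioo_mem_nhdsLT hp] with l hl
  exact n1_wirt_aux ν hu hg hT hu0 hg0 hcross hl.1 ((lt_div_iff₀ hM).1 hl.2)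

end wirt

end Crest.Agent.R241
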